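import Vale.Agent.P091.Hump

/-!
# P091: almost everywhere divergence in every Orlicz class below `L sqrt(log L)`
-/

open Finset Real MeasureTheory AddCircle Filter Asymptotics

theorem Vale.Agent.Results.P091.SqrtLog.result {T : ℝ} [hT : Fact (0 < T)] (φ : ℝ → ℝ)
    (hmono : MonotoneOn φ (Set.Ici 0)) (hpos : ∀ u, 0 ≤ u → 0 ≤ φ u)
    (hgrowth : φ =o[atTop] fun u => u * √(log u)) :
    ∃ f : AddCircle T → ℝ, (∀ x, 0 ≤ f x) ∧ Integrable f haarAddCircle ∧
      Integrable (fun x => φ (f x)) haarAddCircle ∧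
      ∀ᵐ x ∂(haarAddCircle : Measure (AddCircle T)), ∀ A : ℝ, ∃ N : ℕ,
        A < ‖∑ k ∈ Icc (-(N : ℤ)) N, fourierCoeff (fun y => (f y : ℂ)) k • fourier k x‖ := by
  obtain ⟨c, α, B, K, R, a, p, H⟩ := Vale.Agent.P091.exists_hump T hmono hpos hgrowth
  exact ⟨Vale.Agent.P091.ff α p, fun x => ENNReal.toReal_nonneg, H.integrable_ff,
    H.integrable_phi hmono hpos, H.ae_unbounded⟩
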